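import Vale.Agent.H8.P061Proof

namespace Vale.Agent.Results.P061.BoundedTreedepth

open Vale.Agent.H8.P061

/-- Strong thin tree bound for multigraphs of bounded treedepth. -/
theorem result : ∀ (h k : ℕ), 1 ≤ k → ∀ (V E : Type) [Finite V] [Finite E] [Nontrivial V]
    (G : Multigraph V E), G.EdgeConnected k → G.TreedepthLE h →
    ∃ T : Set E, G.IsSpanningTree T ∧ G.IsThin (((h : ℝ) - 1) ^ 2 / k) T := by
  intro h k hk V E _ _ _ G hG ht
  exact main h k hk V E G hG ht

end Vale.Agent.Results.P061.BoundedTreedepth
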